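import Mathlib
import Vale.Agent.P141.Defs
import Vale.Agent.P141.Main
import Vale.Agent.P141.Configs

open MeasureTheory Filter Topology
open scoped ENNReal SchwartzMap

namespace Vale.Agent.Results.P141.UnboundedLowExponents

open Vale.Agent.P141

lemma holder_real {p₁ p₂ p₃ r : ℝ≥0∞} (h : IsHolderTuple p₁ p₂ p₃ r) :
    r ≠ 0 ∧ r ≠ ∞ ∧ 1 / r.toReal = 1 / p₁.toReal + 1 / p₂.toReal + 1 / p₃.toReal := by
  obtain ⟨h1, h2, h3, h4, h5, h6⟩ := h
  refine ⟨h4.ne', h5.ne, ?_⟩
  have f1 : p₁⁻¹ ≠ ∞ := ENNReal.inv_ne_top.2 (zero_lt_one.trans h1).ne'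
  have f2 : p₂⁻¹ ≠ ∞ := ENNReal.inv_ne_top.2 (zero_lt_one.trans h2).ne'
  have f3 : p₃⁻¹ ≠ ∞ := ENNReal.inv_ne_top.2 (zero_lt_one.trans h3).ne'
  have h7 := congrArg ENNReal.toReal h6
  rw [ENNReal.toReal_add (ENNReal.add_ne_top.2 ⟨f1, f2⟩) f3, ENNReal.toReal_add f1 f2] at h7
  simpa [ENNReal.toReal_inv] using h7

lemma toReal_lt {p₁ p₂ p₃ : ℝ≥0∞} (h1 : 1 < p₁) (h2 : 1 < p₂) (h3 : 1 < p₃)
    (h : 2 < p₁⁻¹ + p₂⁻¹ + 3 / 5 * p₃⁻¹) :
    2 < 1 / p₁.toReal + 1 / p₂.toReal + 3 / 5 * (1 / p₃.toReal) := by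
  have f1 : p₁⁻¹ ≠ ∞ := ENNReal.inv_ne_top.2 (zero_lt_one.trans h1).ne'
  have f2 : p₂⁻¹ ≠ ∞ := ENNReal.inv_ne_top.2 (zero_lt_one.trans h2).ne'
  have f3 : p₃⁻¹ ≠ ∞ := ENNReal.inv_ne_top.2 (zero_lt_one.trans h3).ne'
  have f4 : (3 / 5 : ℝ≥0∞) ≠ ∞ := ENNReal.div_ne_top (by simp) (by simp)
  have f5 : 3 / 5 * p₃⁻¹ ≠ ∞ := ENNReal.mul_ne_top f4 f3
  have h7 := (ENNReal.toReal_lt_toReal (by simp)
    (ENNReal.add_ne_top.2 ⟨ENNReal.add_ne_top.2 ⟨f1, f2⟩, f5⟩)).2 h
  rw [ENNReal.toReal_add (ENNReal.add_ne_top.2 ⟨f1, f2⟩) f5, ENNReal.toReal_add f1 f2] at h7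
  simpa [ENNReal.toReal_inv] using h7

/-- **Unboundedness of the trilinear Hilbert transform for low exponents.**
`T` is unbounded at every Hölder tuple with `r ≤ 0.468`, and also at every Hölder tuple such that
`1/p_i + 1/p_j + (3/5)/p_k > 2` for some labelling `{i,j,k} = {1,2,3}`. -/
theorem result : ∀ p₁ p₂ p₃ r : ℝ≥0∞, IsHolderTuple p₁ p₂ p₃ r →
    (r ≤ 117 / 250 ∨ 2 < p₁⁻¹ + p₂⁻¹ + 3 / 5 * p₃⁻¹ ∨ 2 < p₁⁻¹ + p₃⁻¹ + 3 / 5 * p₂⁻¹ ∨
      2 < p₂⁻¹ + p₃⁻¹ + 3 / 5 * p₁⁻¹) →
    ¬ BoundedAt p₁ p₂ p₃ r := by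
  intro p₁ p₂ p₃ r hH hcase
  obtain ⟨hr0, hrt, hs⟩ := holder_real hH
  obtain ⟨hp1, hp2, hp3, -, -, -⟩ := hH
  have w1 : 0 ≤ 1 / p₁.toReal := by positivity
  have w2 : 0 ≤ 1 / p₂.toReal := by positivity
  have w3 : 0 ≤ 1 / p₃.toReal := by positivity
  rcases hcase with h | h | h | h
  · have hrr : r.toReal ≤ 117 / 250 := by
      have h1 := ENNReal.toReal_mono (ENNReal.div_ne_top (by simp) (by simp)) h
      simpa using h1
    have hrpos : 0 < r.toReal := ENNReal.toReal_pos hr0 hrt
    have hsge : 250 / 117 ≤ 1 / r.toReal := by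
      rw [le_div_iff₀ hrpos]; linarith
    have e1 := ent_compare cN 1000 (by norm_num) cN_pos cN_sum (fun i => cX i - 1 * cT i)
      133 250 (by norm_num) (by norm_num) ineq1
    have e2 := ent_compare cN 1000 (by norm_num) cN_pos cN_sum (fun i => cX i - 2 * cT i)
      133 250 (by norm_num) (by norm_num) ineq2
    have e3 := ent_compare cN 1000 (by norm_num) cN_pos cN_sum (fun i => cX i - 3 * cT i)
      133 250 (by norm_num) (by norm_num) ineq3
    have hpos := ent_pos cN 1000 cN_pos (by decide +kernel)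
    refine not_boundedAt_of_config (prb cN 1000) ?_ (sum_prb cN 1000 (by norm_num) cN_sum)
      cX cT cX_inj p₁ p₂ p₃ r hr0 hrt hs (by linarith) ?_
    · intro i
      have := cN_pos i
      unfold prb
      positivity
    · set H := -∑ i, prb cN 1000 i * Real.log (prb cN 1000 i) with hHdef
      set s := 1 / r.toReal
      have hsum : 1 / p₁.toReal * entOf (prb cN 1000) (fun i => cX i - 1 * cT i) +
          1 / p₂.toReal * entOf (prb cN 1000) (fun i => cX i - 2 * cT i) +
          1 / p₃.toReal * entOf (prb cN 1000) (fun i => cX i - 3 * cT i) <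
          s * (((133 : ℕ) : ℝ) / ((250 : ℕ) : ℝ) * H) := by
        have hne : 0 < 1 / p₁.toReal ∨ 0 < 1 / p₂.toReal ∨ 0 < 1 / p₃.toReal := by
          by_contra hcon
          push Not at hcon
          linarith [hcon.1, hcon.2.1, hcon.2.2]
        have g1 := mul_le_mul_of_nonneg_left e1.le w1
        have g2 := mul_le_mul_of_nonneg_left e2.le w2
        have g3 := mul_le_mul_of_nonneg_left e3.le w3
        rw [hs]
        rcases hne with hne | hne | hne
        · have := mul_lt_mul_of_pos_left e1 hne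
          linarith
        · have := mul_lt_mul_of_pos_left e2 hne
          linarith
        · have := mul_lt_mul_of_pos_left e3 hne
          linarith
      refine hsum.trans_le ?_
      push_cast
      have : s * (133 / 250 * H) ≤ (s - 1) * H := by
        have h5 : 0 ≤ (s * (117 / 250) - 1) * H := mul_nonneg (by linarith) hpos.le
        linarith
      exact this
  · have hw := toReal_lt hp1 hp2 hp3 h
    have e1 := ent_compare_le one16 16 (by norm_num) one16_pos one16_sum
      (fun i => aX i - 1 * aT i) 1 2 (by norm_num) (by norm_num) a1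
    have e2 := ent_compare_le one16 16 (by norm_num) one16_pos one16_sum
      (fun i => aX i - 2 * aT i) 1 2 (by norm_num) (by norm_num) a2
    have e3 := ent_compare_le one16 16 (by norm_num) one16_pos one16_sum
      (fun i => aX i - 3 * aT i) 7 10 (by norm_num) (by norm_num) a3
    have hpos := ent_pos one16 16 one16_pos one16_lt
    refine not_boundedAt_of_config (prb one16 16) ?_ (sum_prb one16 16 (by norm_num) one16_sum)
      aX aT aX_inj p₁ p₂ p₃ r hr0 hrt hs (by linarith) ?_
    · intro i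
      have := one16_pos i
      unfold prb
      positivity
    · set H := -∑ i, prb one16 16 i * Real.log (prb one16 16 i) with hHdef
      push_cast at e1 e2 e3
      have g1 := mul_le_mul_of_nonneg_left e1 w1
      have g2 := mul_le_mul_of_nonneg_left e2 w2
      have g3 := mul_le_mul_of_nonneg_left e3 w3
      rw [hs]
      have h5 : 0 < (1 / p₁.toReal + 1 / p₂.toReal + 3 / 5 * (1 / p₃.toReal) - 2) * H :=
        mul_pos (by linarith) hpos
      linarith
  · have hw := toReal_lt hp1 hp3 hp2 h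
    have e1 := ent_compare_le one9 9 (by norm_num) one9_pos one9_sum
      (fun i => dX i - 1 * dT i) 1 2 (by norm_num) (by norm_num) d1
    have e2 := ent_compare_le one9 9 (by norm_num) one9_pos one9_sum
      (fun i => dX i - 2 * dT i) 7 10 (by norm_num) (by norm_num) d2
    have e3 := ent_compare_le one9 9 (by norm_num) one9_pos one9_sum
      (fun i => dX i - 3 * dT i) 1 2 (by norm_num) (by norm_num) d3
    have hpos := ent_pos one9 9 one9_pos one9_lt
    refine not_boundedAt_of_config (prb one9 9) ?_ (sum_prb one9 9 (by norm_num) one9_sum)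
      dX dT dX_inj p₁ p₂ p₃ r hr0 hrt hs (by linarith) ?_
    · intro i
      have := one9_pos i
      unfold prb
      positivity
    · set H := -∑ i, prb one9 9 i * Real.log (prb one9 9 i) with hHdef
      push_cast at e1 e2 e3
      have g1 := mul_le_mul_of_nonneg_left e1 w1
      have g2 := mul_le_mul_of_nonneg_left e2 w2
      have g3 := mul_le_mul_of_nonneg_left e3 w3
      rw [hs]
      have h5 : 0 < (1 / p₁.toReal + 1 / p₃.toReal + 3 / 5 * (1 / p₂.toReal) - 2) * H :=
        mul_pos (by linarith) hpos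
      linarith
  · have hw := toReal_lt hp2 hp3 hp1 h
    have e1 := ent_compare_le one16 16 (by norm_num) one16_pos one16_sum
      (fun i => bX i - 1 * bT i) 7 10 (by norm_num) (by norm_num) b1
    have e2 := ent_compare_le one16 16 (by norm_num) one16_pos one16_sum
      (fun i => bX i - 2 * bT i) 1 2 (by norm_num) (by norm_num) b2
    have e3 := ent_compare_le one16 16 (by norm_num) one16_pos one16_sum
      (fun i => bX i - 3 * bT i) 1 2 (by norm_num) (by norm_num) b3
    have hpos := ent_pos one16 16 one16_pos one16_lt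
    refine not_boundedAt_of_config (prb one16 16) ?_ (sum_prb one16 16 (by norm_num) one16_sum)
      bX bT bX_inj p₁ p₂ p₃ r hr0 hrt hs (by linarith) ?_
    · intro i
      have := one16_pos i
      unfold prb
      positivity
    · set H := -∑ i, prb one16 16 i * Real.log (prb one16 16 i) with hHdef
      push_cast at e1 e2 e3
      have g1 := mul_le_mul_of_nonneg_left e1 w1
      have g2 := mul_le_mul_of_nonneg_left e2 w2
      have g3 := mul_le_mul_of_nonneg_left e3 w3
      rw [hs]
      have h5 : 0 < (1 / p₂.toReal + 1 / p₃.toReal + 3 / 5 * (1 / p₁.toReal) - 2) * H :=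
        mul_pos (by linarith) hpos
      linarith

end Vale.Agent.Results.P141.UnboundedLowExponents
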